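import Vale.Agent.P034.Encode

namespace Vale.Agent.P034

open Finset

section Count

variable {X : Type*} [Fintype X] [DecidableEq X] {R : ℕ}

open Classical in
/-- Canonical minimiser of the cost with prescribed counts among configurations inside `W`. -/
noncomputable def dec (F : Finset (Finset X)) (lam : Finset X → X → ℝ)
    (W : Finset (X × Fin R)) (n : Fin R → ℕ) : Finset X × (X → Fin (R + 1)) :=
  if h : (((univ : Finset (Finset X × (X → Fin (R + 1)))).filter
      (fun κ => κ.1 ∈ F ∧ Gam κ ⊆ W))).Nonempty then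
    (Finset.exists_min_image _ (fun κ => Phi lam κ n) h).choose
  else (∅, fun _ => 0)

lemma dec_spec {F : Finset (Finset X)} (lam : Finset X → X → ℝ)
    {W : Finset (X × Fin R)} (n : Fin R → ℕ) {κ : Finset X × (X → Fin (R + 1))}
    (h1 : κ.1 ∈ F) (h2 : Gam κ ⊆ W) :
    (dec F lam W n).1 ∈ F ∧ Gam (dec F lam W n) ⊆ W ∧ Phi lam (dec F lam W n) n ≤ Phi lam κ n := by
  unfold dec
  split_ifs with hne
  · have hspec := (Finset.exists_min_image _ (fun κ => Phi lam κ n) hne).choose_spec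
    have hm := (Finset.mem_filter.mp hspec.1).2
    exact ⟨hm.1, hm.2, hspec.2 κ (by simp only [mem_filter, mem_univ, true_and]; exact ⟨h1, h2⟩)⟩
  · exact absurd ⟨κ, by simp only [mem_filter, mem_univ, true_and]; exact ⟨h1, h2⟩⟩ hne

open Classical in
/-- The canonical superset. -/
noncomputable def Uset (F : Finset (Finset X)) (lam : Finset X → X → ℝ)
    (W : Finset (X × Fin R)) (n : Fin R → ℕ) : Finset (X × Fin R) :=
  univ.filter (fun y => 0 < n y.2 ∧
    pen (lam (dec F lam W n).1) y.2 (n y.2) - pen (lam (dec F lam W n).1) y.2 (n y.2 - 1)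
      < lam (dec F lam W n).1 y.1)

lemma subset_Uset {F : Finset (Finset X)} {lam : Finset X → X → ℝ} {W : Finset (X × Fin R)}
    {H : Finset X} {κ : Finset X × (X → Fin (R + 1))} (hκ : IsOpt F lam W H κ) :
    Gam κ \ W ⊆ Uset F lam (W ∪ (Gam κ \ W)) (cnt (Gam κ \ W)) := by
  have hsub : Gam κ ⊆ W ∪ (Gam κ \ W) := by
    intro y hy
    simp only [mem_union, mem_sdiff]
    tauto
  obtain ⟨h1, h2, h3⟩ := dec_spec lam (cnt (Gam κ \ W)) hκ.1.1 hsub
  obtain ⟨hopt, hZ⟩ := opt_transfer hκ h1 h2 h3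
  intro y hy
  unfold Uset
  simp only [mem_filter, mem_univ, true_and]
  constructor
  · unfold cnt
    rw [Finset.card_pos]
    exact ⟨y, by simp only [mem_filter]; exact ⟨hy, le_refl _⟩⟩
  · have hy' : (y.1, y.2) ∈ Gam (dec F lam (W ∪ (Gam κ \ W)) (cnt (Gam κ \ W))) \ W := by
      rw [hZ]; exact hy
    have := opt_step hopt hy'
    rw [hZ] at this
    exact this

lemma card_Uset_level (F : Finset (Finset X)) (lam : Finset X → X → ℝ)
    (W : Finset (X × Fin R)) (n : Fin R → ℕ) (j : Fin R) :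
    ((Uset F lam W n).filter (fun y => y.2 = j)).card ≤ 2 ^ ((j : ℕ) + 3) * n j := by
  classical
  rcases Nat.eq_zero_or_pos (n j) with h0 | hpos
  · have : (Uset F lam W n).filter (fun y => y.2 = j) = ∅ := by
      rw [Finset.filter_eq_empty_iff]
      intro y hy hj
      unfold Uset at hy
      simp only [mem_filter, mem_univ, true_and] at hy
      rw [hj, h0] at hy
      exact absurd hy.1 (lt_irrefl _)
    rw [this]
    simp
  · have h1 := card_gt_step (lam (dec F lam W n).1) (m := 2 ^ ((j : ℕ) + 3)) (n := n j)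
      (by positivity) hpos
    refine le_trans ?_ h1.le
    apply Finset.card_le_card_of_injOn (fun y => y.1)
    · intro y hy
      simp only [Finset.coe_filter, Set.mem_ofPred_eq] at hy
      have hy1 := hy.1
      unfold Uset at hy1
      simp only [mem_filter, mem_univ, true_and] at hy1
      rw [hy.2] at hy1
      simp only [Finset.coe_filter, Set.mem_ofPred_eq, mem_univ, true_and]
      have h2 := hy1.2
      unfold pen at h2
      rw [← sub_div] at h2
      exact h2
    · intro y hy y' hy' heq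
      simp only [Finset.coe_filter, Set.mem_ofPred_eq] at hy hy'
      apply Prod.ext heq
      rw [hy.2, hy'.2]

/-- Number of elements of level exactly `j`. -/
def tp (Z : Finset (X × Fin R)) (j : Fin R) : ℕ := (Z.filter (fun y => y.2 = j)).card

/-- Cumulative counts. -/
def cum (z : Fin R → ℕ) (j : Fin R) : ℕ := ∑ i ∈ univ.filter (fun i => i ≤ j), z i

lemma cnt_eq_cum (Z : Finset (X × Fin R)) : cnt Z = cum (tp Z) := by
  funext j
  unfold cnt cum tp
  rw [Finset.card_eq_sum_card_fiberwise (f := fun y => y.2)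
    (t := (univ : Finset (Fin R)).filter (fun i => i ≤ j))]
  · apply Finset.sum_congr rfl
    intro i hi
    simp only [mem_filter, mem_univ, true_and] at hi
    congr 1
    ext y
    simp only [mem_filter]
    constructor
    · rintro ⟨⟨h1, _⟩, h3⟩; exact ⟨h1, h3⟩
    · rintro ⟨h1, h3⟩; exact ⟨⟨h1, h3 ▸ hi⟩, h3⟩
  · intro y hy
    simp only [Finset.coe_filter, Set.mem_ofPred_eq] at hy
    simp only [Finset.coe_filter, Set.mem_ofPred_eq, mem_univ, true_and]
    exact hy.2

lemma cum_le (z : Fin R → ℕ) (j : Fin R) : cum z j ≤ ∑ i, z i :=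
  Finset.sum_le_sum_of_subset (Finset.filter_subset _ _)

/-- Weight of an element at level `j`. -/
noncomputable def Qinv (j : ℕ) : ℝ := (1 / 2) ^ (3 * j + 11)

noncomputable def wt (Z : Finset (X × Fin R)) : ℝ := ∏ y ∈ Z, Qinv y.2

lemma wt_nonneg (Z : Finset (X × Fin R)) : 0 ≤ wt Z :=
  Finset.prod_nonneg (fun _ _ => by unfold Qinv; positivity)

lemma prod_level (Z : Finset (X × Fin R)) (r : ℕ → ℝ) :
    ∏ y ∈ Z, r y.2 = ∏ j : Fin R, r j ^ tp Z j := by
  unfold tp
  rw [← Finset.prod_fiberwise Z (fun y => y.2) (fun y => r y.2)]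
  apply Finset.prod_congr rfl
  intro j _
  rw [Finset.prod_congr rfl (g := fun _ => r j)]
  · simp
  · intro y hy
    rw [(Finset.mem_filter.mp hy).2]

lemma sum_level (Z : Finset (X × Fin R)) (r : ℕ → ℝ) :
    ∑ y ∈ Z, r y.2 = ∑ j : Fin R, r j * (tp Z j : ℝ) := by
  unfold tp
  rw [← Finset.sum_fiberwise Z (fun y => y.2) (fun y => r y.2)]
  apply Finset.sum_congr rfl
  intro j _
  rw [Finset.sum_congr rfl (g := fun _ => r j)]
  · simp [mul_comm]
  · intro y hy
    rw [(Finset.mem_filter.mp hy).2]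

lemma geom_sum_fin_le (R : ℕ) (c : ℝ) (hc : 0 ≤ c) :
    ∑ j : Fin R, c * (1 / 2 : ℝ) ^ (j : ℕ) ≤ 2 * c := by
  rw [← Finset.mul_sum, Fin.sum_univ_eq_sum_range (fun j => (1 / 2 : ℝ) ^ j) R]
  have h : ∑ i ∈ range R, (1 / 2 : ℝ) ^ i ≤ 2 := by
    have := geom_sum_eq (x := (1 / 2 : ℝ)) (by norm_num) R
    rw [this]
    have h2 : 0 < (1 / 2 : ℝ) ^ R := by positivity
    rw [div_le_iff_of_neg (by norm_num)]
    linarith
  nlinarith

/-- Counting for a fixed vector of level counts. -/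
lemma sum_wt_type_le (F : Finset (Finset X)) (lam : Finset X → X → ℝ)
    (W : Finset (X × Fin R)) (z : Fin R → ℕ) :
    ∑ Z ∈ ((Uset F lam W (cum z)).powerset.filter (fun Z => tp Z = z)), wt Z
      ≤ ∏ j : Fin R, ((1 / 14) * (1 / 2 : ℝ) ^ (j : ℕ)) ^ z j := by
  classical
  set U := Uset F lam W (cum z) with hU
  -- split the weight
  have hsplit : ∀ Z : Finset (X × Fin R), wt Z
      = (∏ y ∈ Z, ((1 / 2 : ℝ) ^ ((y.2 : ℕ) + 4))) * ∏ y ∈ Z, ((1 / 2 : ℝ) ^ (2 * (y.2 : ℕ) + 7)) := by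
    intro Z
    unfold wt Qinv
    rw [← Finset.prod_mul_distrib]
    apply Finset.prod_congr rfl
    intro y _
    rw [← pow_add]
    congr 1
    ring
  have h1 : ∑ Z ∈ (U.powerset.filter (fun Z => tp Z = z)), wt Z
      ≤ (∏ j : Fin R, ((1 / 2 : ℝ) ^ ((j : ℕ) + 4)) ^ z j) *
        ∑ Z ∈ U.powerset, ∏ y ∈ Z, ((1 / 2 : ℝ) ^ (2 * (y.2 : ℕ) + 7)) := by
    have h2 : ∑ Z ∈ (U.powerset.filter (fun Z => tp Z = z)), wt Z
        = ∑ Z ∈ (U.powerset.filter (fun Z => tp Z = z)),
          (∏ j : Fin R, ((1 / 2 : ℝ) ^ ((j : ℕ) + 4)) ^ z j) *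
            ∏ y ∈ Z, ((1 / 2 : ℝ) ^ (2 * (y.2 : ℕ) + 7)) := by
      apply Finset.sum_congr rfl
      intro Z hZ
      rw [hsplit Z, prod_level Z (fun j => (1 / 2 : ℝ) ^ (j + 4)), (Finset.mem_filter.mp hZ).2]
    rw [h2, ← Finset.mul_sum]
    apply mul_le_mul_of_nonneg_left
    · apply Finset.sum_le_sum_of_subset_of_nonneg (Finset.filter_subset _ _)
      intro Z _ _
      positivity
    · positivity
  have h3 : ∑ Z ∈ U.powerset, ∏ y ∈ Z, ((1 / 2 : ℝ) ^ (2 * (y.2 : ℕ) + 7))
      ≤ Real.exp ((1 / 8) * ((∑ i, z i : ℕ) : ℝ)) := by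
    rw [← Finset.prod_one_add]
    have h4 : ∏ y ∈ U, (1 + (1 / 2 : ℝ) ^ (2 * (y.2 : ℕ) + 7))
        ≤ ∏ y ∈ U, Real.exp ((1 / 2 : ℝ) ^ (2 * (y.2 : ℕ) + 7)) := by
      apply Finset.prod_le_prod
      · intro y _; positivity
      · intro y _
        rw [add_comm]
        exact Real.add_one_le_exp _
    refine h4.trans ?_
    rw [← Real.exp_sum]
    apply Real.exp_le_exp.mpr
    rw [sum_level U (fun j => (1 / 2 : ℝ) ^ (2 * j + 7))]
    have h5 : ∀ j : Fin R, (1 / 2 : ℝ) ^ (2 * (j : ℕ) + 7) * (tp U j : ℝ)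
        ≤ ((∑ i, z i : ℕ) : ℝ) / 16 * (1 / 2 : ℝ) ^ (j : ℕ) := by
      intro j
      have h6 : (tp U j : ℝ) ≤ 2 ^ ((j : ℕ) + 3) * ((∑ i, z i : ℕ) : ℝ) := by
        have h7 := card_Uset_level F lam W (cum z) j
        have h8 : tp U j ≤ 2 ^ ((j : ℕ) + 3) * ∑ i, z i :=
          h7.trans (Nat.mul_le_mul_left _ (cum_le z j))
        exact_mod_cast h8
      calc (1 / 2 : ℝ) ^ (2 * (j : ℕ) + 7) * (tp U j : ℝ)
          ≤ (1 / 2 : ℝ) ^ (2 * (j : ℕ) + 7) * (2 ^ ((j : ℕ) + 3) * ((∑ i, z i : ℕ) : ℝ)) := by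
            apply mul_le_mul_of_nonneg_left h6 (by positivity)
        _ = ((∑ i, z i : ℕ) : ℝ) / 16 * (1 / 2 : ℝ) ^ (j : ℕ) := by
            have : (1 / 2 : ℝ) ^ (2 * (j : ℕ) + 7)
                = (1 / 2 : ℝ) ^ (j : ℕ) * (1 / 2 : ℝ) ^ ((j : ℕ) + 3) * (1 / 16) := by
              rw [show 2 * (j : ℕ) + 7 = (j : ℕ) + ((j : ℕ) + 3) + 4 by ring, pow_add, pow_add]
              norm_num
            rw [this]
            have h9 : (1 / 2 : ℝ) ^ ((j : ℕ) + 3) * 2 ^ ((j : ℕ) + 3) = 1 := by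
              rw [← mul_pow]; norm_num
            calc (1 / 2 : ℝ) ^ (j : ℕ) * (1 / 2 : ℝ) ^ ((j : ℕ) + 3) * (1 / 16) *
                (2 ^ ((j : ℕ) + 3) * ((∑ i, z i : ℕ) : ℝ))
                = ((1 / 2 : ℝ) ^ ((j : ℕ) + 3) * 2 ^ ((j : ℕ) + 3)) *
                  (((∑ i, z i : ℕ) : ℝ) / 16 * (1 / 2 : ℝ) ^ (j : ℕ)) := by ring
              _ = _ := by rw [h9, one_mul]
    refine (Finset.sum_le_sum (fun j _ => h5 j)).trans ?_
    refine (geom_sum_fin_le R _ (by positivity)).trans ?_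
    apply le_of_eq
    ring
  have hexp : Real.exp (1 / 8) ≤ 8 / 7 := by
    have := Real.add_one_le_exp (-(1 / 8) : ℝ)
    rw [Real.exp_neg] at this
    have hpos := Real.exp_pos (1 / 8 : ℝ)
    have h10 : (7 / 8 : ℝ) ≤ (Real.exp (1 / 8))⁻¹ := by linarith
    rw [le_inv_comm₀ (by norm_num) hpos] at h10
    norm_num at h10 ⊢
    linarith
  refine h1.trans ?_
  refine (mul_le_mul_of_nonneg_left h3 (by positivity)).trans ?_
  have h11 : Real.exp ((1 / 8) * ((∑ i, z i : ℕ) : ℝ)) = ∏ j : Fin R, (Real.exp (1 / 8)) ^ z j := by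
    rw [Finset.prod_pow_eq_pow_sum, ← Real.exp_nat_mul]
    congr 1
    ring
  rw [h11, ← Finset.prod_mul_distrib]
  apply Finset.prod_le_prod
  · intro j _; positivity
  · intro j _
    rw [← mul_pow]
    apply pow_le_pow_left₀ (by positivity)
    calc (1 / 2 : ℝ) ^ ((j : ℕ) + 4) * Real.exp (1 / 8)
        ≤ (1 / 2 : ℝ) ^ ((j : ℕ) + 4) * (8 / 7) := by
          apply mul_le_mul_of_nonneg_left hexp (by positivity)
      _ = (1 / 14) * (1 / 2 : ℝ) ^ (j : ℕ) := by
          rw [pow_add]; ring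

/-- Total over all non-zero vectors of level counts. -/
lemma sum_types_le (R N : ℕ) :
    ∑ z ∈ (Fintype.piFinset (fun _ : Fin R => range N)).filter (fun z => z ≠ 0),
      ∏ j : Fin R, ((1 / 14) * (1 / 2 : ℝ) ^ (j : ℕ)) ^ z j ≤ 2 / 5 := by
  classical
  rcases Nat.eq_zero_or_pos N with hN | hN
  · subst hN
    rcases Nat.eq_zero_or_pos R with hR | hR
    · subst hR
      have : ((Fintype.piFinset (fun _ : Fin 0 => range 0)).filter
          (fun z : Fin 0 → ℕ => z ≠ 0)) = ∅ := by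
        rw [Finset.filter_eq_empty_iff]
        intro z _ hz
        exact hz (Subsingleton.elim _ _)
      rw [this]; norm_num
    · have : (Fintype.piFinset (fun _ : Fin R => range 0)) = ∅ := by
        rw [Finset.eq_empty_iff_forall_notMem]
        intro z hz
        rw [Fintype.mem_piFinset] at hz
        have := hz ⟨0, hR⟩
        simp at this
      rw [this]; norm_num
  have h0 : (0 : Fin R → ℕ) ∈ Fintype.piFinset (fun _ : Fin R => range N) := by
    rw [Fintype.mem_piFinset]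
    intro j
    simpa using hN
  have hfil : (Fintype.piFinset (fun _ : Fin R => range N)).filter (fun z => z ≠ 0)
      = (Fintype.piFinset (fun _ : Fin R => range N)).erase 0 := by
    ext z
    simp only [mem_filter, mem_erase]
    tauto
  rw [hfil]
  have h1 := Finset.add_sum_erase (Fintype.piFinset (fun _ : Fin R => range N))
    (fun z => ∏ j : Fin R, ((1 / 14) * (1 / 2 : ℝ) ^ (j : ℕ)) ^ z j) h0
  simp only [Pi.zero_apply, pow_zero, Finset.prod_const_one] at h1
  rw [← Finset.prod_univ_sum (fun _ : Fin R => range N)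
    (fun j k => ((1 / 14) * (1 / 2 : ℝ) ^ (j : ℕ)) ^ k)] at h1
  have h2 : ∏ j : Fin R, ∑ k ∈ range N, ((1 / 14) * (1 / 2 : ℝ) ^ (j : ℕ)) ^ k ≤ 7 / 5 := by
    have h3 : ∀ j : Fin R, ∑ k ∈ range N, ((1 / 14) * (1 / 2 : ℝ) ^ (j : ℕ)) ^ k
        ≤ Real.exp ((1 / 7) * (1 / 2 : ℝ) ^ (j : ℕ)) := by
      intro j
      set ρ : ℝ := (1 / 14) * (1 / 2 : ℝ) ^ (j : ℕ) with hρ
      have hρ0 : 0 < ρ := by positivity
      have hρ1 : ρ ≤ 1 / 14 := by
        have : (1 / 2 : ℝ) ^ (j : ℕ) ≤ 1 := pow_le_one₀ (by norm_num) (by norm_num)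
        nlinarith
      have h4 : ∑ k ∈ range N, ρ ^ k ≤ 1 / (1 - ρ) := by
        rw [geom_sum_eq (by linarith) N]
        have h5 : 0 < ρ ^ N := by positivity
        rw [show (ρ ^ N - 1) / (ρ - 1) = (1 - ρ ^ N) / (1 - ρ) by
          rw [← neg_sub 1 (ρ ^ N), ← neg_sub 1 ρ, neg_div_neg_eq]]
        apply div_le_div_of_nonneg_right _ (by linarith)
        linarith
      have h6 : 1 / (1 - ρ) ≤ 1 + 2 * ρ := by
        rw [div_le_iff₀ (by linarith)]
        nlinarith
      have h7 : (1 / 7) * (1 / 2 : ℝ) ^ (j : ℕ) = 2 * ρ := by rw [hρ]; ring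
      rw [h7]
      have := Real.add_one_le_exp (2 * ρ)
      linarith
    calc ∏ j : Fin R, ∑ k ∈ range N, ((1 / 14) * (1 / 2 : ℝ) ^ (j : ℕ)) ^ k
        ≤ ∏ j : Fin R, Real.exp ((1 / 7) * (1 / 2 : ℝ) ^ (j : ℕ)) := by
          apply Finset.prod_le_prod
          · intro j _
            apply Finset.sum_nonneg
            intro k _
            positivity
          · intro j _; exact h3 j
      _ = Real.exp (∑ j : Fin R, (1 / 7) * (1 / 2 : ℝ) ^ (j : ℕ)) := (Real.exp_sum _ _).symm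
      _ ≤ Real.exp (2 / 7) := by
          apply Real.exp_le_exp.mpr
          have := geom_sum_fin_le R (1 / 7) (by norm_num)
          linarith
      _ ≤ 7 / 5 := by
          have := Real.add_one_le_exp (-(2 / 7) : ℝ)
          rw [Real.exp_neg] at this
          have hpos := Real.exp_pos (2 / 7 : ℝ)
          have h10 : (5 / 7 : ℝ) ≤ (Real.exp (2 / 7))⁻¹ := by linarith
          rw [le_inv_comm₀ (by norm_num) hpos] at h10
          norm_num at h10 ⊢
          linarith
  linarith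

/-- Total weight of admissible nonempty sets for a given `W`. -/
lemma sum_good_le (F : Finset (Finset X)) (lam : Finset X → X → ℝ) (W : Finset (X × Fin R)) :
    ∑ Z ∈ (univ : Finset (Finset (X × Fin R))).filter
      (fun Z => Z ≠ ∅ ∧ Z ⊆ Uset F lam W (cnt Z)), wt Z ≤ 2 / 5 := by
  classical
  set N := (univ : Finset (X × Fin R)).card + 1 with hN
  set T := (Fintype.piFinset (fun _ : Fin R => range N)).filter (fun z => z ≠ 0) with hT
  have hmaps : ∀ Z ∈ (univ : Finset (Finset (X × Fin R))).filter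
      (fun Z => Z ≠ ∅ ∧ Z ⊆ Uset F lam W (cnt Z)), tp Z ∈ T := by
    intro Z hZ
    simp only [mem_filter, mem_univ, true_and] at hZ
    simp only [hT, mem_filter, Fintype.mem_piFinset, mem_range]
    constructor
    · intro j
      have : tp Z j ≤ (univ : Finset (X × Fin R)).card := Finset.card_le_card (subset_univ _)
      omega
    · intro h0
      obtain ⟨y, hy⟩ := Finset.nonempty_iff_ne_empty.mpr hZ.1
      have h1 := congrFun h0 y.2
      simp only [tp, Pi.zero_apply, Finset.card_eq_zero, Finset.filter_eq_empty_iff] at h1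
      exact h1 hy rfl
  rw [← Finset.sum_fiberwise_of_maps_to hmaps]
  refine le_trans (Finset.sum_le_sum (fun z hz => ?_)) (sum_types_le R N)
  refine le_trans ?_ (sum_wt_type_le F lam W z)
  apply Finset.sum_le_sum_of_subset_of_nonneg
  · intro Z hZ
    simp only [mem_filter, mem_univ, true_and] at hZ
    simp only [mem_filter, mem_powerset]
    refine ⟨?_, hZ.2⟩
    have h2 := hZ.1.2
    rw [cnt_eq_cum, hZ.2] at h2
    exact h2
  · intro Z _ _
    exact wt_nonneg Z

end Count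

end Vale.Agent.P034
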