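import Mathlib

/-!
Definitions for the comparison of integral and fractional expectation thresholds.
Throughout, `X` is a finite set and a family of subsets of `X` is a `Finset (Finset X)`.
-/

namespace Vale.Agent.P034

variable {X : Type*} [Fintype X] [DecidableEq X]

/-- `F` is a nonempty proper increasing family: it has a member, the empty set is not a
member, and every superset of a member is a member. -/
def IsProperIncreasing (F : Finset (Finset X)) : Prop :=
  F.Nonempty ∧ ∅ ∉ F ∧ ∀ A ∈ F, ∀ B : Finset X, A ⊆ B → B ∈ F

/-- The family `G` covers `F`: every member of `F` contains a member of `G`. -/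
def Covers (G F : Finset (Finset X)) : Prop :=
  ∀ H ∈ F, ∃ S ∈ G, S ⊆ H

/-- The cost of the family `G` at `p`, the sum of `p ^ |S|` over `S` in `G`. -/
noncomputable def coverCost (p : ℝ) (G : Finset (Finset X)) : ℝ :=
  ∑ S ∈ G, p ^ S.card

/-- `F` is `p`-small: some family covering `F` has cost at most `1/2` at `p`. -/
def IsSmall (p : ℝ) (F : Finset (Finset X)) : Prop :=
  ∃ G : Finset (Finset X), Covers G F ∧ coverCost p G ≤ 1 / 2

/-- `g` is a fractional cover of `F`: a function on all subsets of `X` with values in `[0,1]`
whose sum over the subsets of `H` is at least `1` for every `H` in `F`. -/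
def IsFractionalCover (g : Finset X → ℝ) (F : Finset (Finset X)) : Prop :=
  (∀ S, 0 ≤ g S ∧ g S ≤ 1) ∧ ∀ H ∈ F, 1 ≤ ∑ S ∈ H.powerset, g S

/-- The cost of `g` at `p`, the sum of `g S * p ^ |S|` over all subsets `S` of `X`. -/
noncomputable def fractionalCost (p : ℝ) (g : Finset X → ℝ) : ℝ :=
  ∑ S : Finset X, g S * p ^ S.card

/-- Some fractional cover of `F` has cost at most `1/2` at `p`. -/
def IsFractionallySmall (p : ℝ) (F : Finset (Finset X)) : Prop :=
  ∃ g : Finset X → ℝ, IsFractionalCover g F ∧ fractionalCost p g ≤ 1 / 2

/-- The expectation threshold `q(F)`, the largest `p` in `[0,1]` for which `F` is `p`-small. -/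
noncomputable def expectationThreshold (F : Finset (Finset X)) : ℝ :=
  sSup {p : ℝ | 0 ≤ p ∧ p ≤ 1 ∧ IsSmall p F}

/-- The fractional expectation threshold `q_f(F)`, the largest `p` in `[0,1]` for which some
fractional cover of `F` has cost at most `1/2` at `p`. -/
noncomputable def fractionalExpectationThreshold (F : Finset (Finset X)) : ℝ :=
  sSup {p : ℝ | 0 ≤ p ∧ p ≤ 1 ∧ IsFractionallySmall p F}

end Vale.Agent.P034
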