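import Vale.Agent.P034.TopSum

namespace Vale.Agent.P034

open Finset

section Encode

variable {X : Type*} [Fintype X] [DecidableEq X] {R : ℕ}

/-- Elements of the set assigned by the level function to a level below the top one. -/
def Gam (κ : Finset X × (X → Fin (R + 1))) : Finset (X × Fin R) :=
  univ.filter (fun y => y.1 ∈ κ.1 ∧ κ.2 y.1 = y.2.castSucc)

/-- Number of elements of level at most `j`. -/
def cnt (Z : Finset (X × Fin R)) (j : Fin R) : ℕ := (Z.filter (fun y => y.2 ≤ j)).card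

/-- Normalised top sum. -/
noncomputable def pen (l : X → ℝ) (j : ℕ) (n : ℕ) : ℝ :=
  topSum l (2 ^ (j + 3) * n) / ((2 ^ (j + 3) : ℕ) : ℝ)

/-- The cost functional. -/
noncomputable def Phi (lam : Finset X → X → ℝ) (κ : Finset X × (X → Fin (R + 1)))
    (n : Fin R → ℕ) : ℝ :=
  ∑ x, 4 * ((κ.2 x : ℕ) : ℝ) * lam κ.1 x + ∑ j : Fin R, 4 * pen (lam κ.1) j (n j)

/-- Feasible configurations. -/
def Feas (F : Finset (Finset X)) (W : Finset (X × Fin R)) (H : Finset X)
    (κ : Finset X × (X → Fin (R + 1))) : Prop :=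
  κ.1 ∈ F ∧ ∀ y ∈ Gam κ \ W, y.1 ∈ H

/-- Optimal configurations. -/
def IsOpt (F : Finset (Finset X)) (lam : Finset X → X → ℝ) (W : Finset (X × Fin R))
    (H : Finset X) (κ : Finset X × (X → Fin (R + 1))) : Prop :=
  Feas F W H κ ∧ ∀ κ', Feas F W H κ' →
    Phi lam κ (cnt (Gam κ \ W)) ≤ Phi lam κ' (cnt (Gam κ' \ W)) ∧
    (Phi lam κ' (cnt (Gam κ' \ W)) ≤ Phi lam κ (cnt (Gam κ \ W)) →
      ∑ j, cnt (Gam κ \ W) j ≤ ∑ j, cnt (Gam κ' \ W) j)

lemma pen_mono (l : X → ℝ) (j : ℕ) {n n' : ℕ} (h : n ≤ n') : pen l j n ≤ pen l j n' := by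
  unfold pen
  apply div_le_div_of_nonneg_right
  · exact topSum_mono l (Nat.mul_le_mul_left _ h)
  · positivity

lemma pen_nonneg (l : X → ℝ) (j : ℕ) (n : ℕ) : 0 ≤ pen l j n := by
  unfold pen
  exact div_nonneg (topSum_nonneg _ _) (by positivity)

lemma cnt_mono {Z Z' : Finset (X × Fin R)} (h : Z ⊆ Z') (j : Fin R) : cnt Z j ≤ cnt Z' j :=
  Finset.card_le_card (Finset.filter_subset_filter _ h)

lemma exists_isOpt (F : Finset (Finset X)) (lam : Finset X → X → ℝ) (W : Finset (X × Fin R))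
    {H : Finset X} (hH : H ∈ F) :
    ∃ κ : Finset X × (X → Fin (R + 1)), IsOpt F lam W H κ := by
  classical
  let S : Finset (Finset X × (X → Fin (R + 1))) := univ.filter (fun κ => Feas F W H κ)
  have hne : S.Nonempty := by
    refine ⟨(H, fun _ => 0), ?_⟩
    simp only [S, mem_filter, mem_univ, true_and, Feas, Gam, mem_sdiff]
    exact ⟨hH, fun y hy => hy.1.1⟩
  obtain ⟨κ, hκ, hmin⟩ := Finset.exists_min_image S
    (fun κ => (toLex (Phi lam κ (cnt (Gam κ \ W)), ∑ j, cnt (Gam κ \ W) j) : ℝ ×ₗ ℕ)) hne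
  refine ⟨κ, by simpa [S] using hκ, ?_⟩
  intro κ' hκ'
  have h := hmin κ' (by simpa [S] using hκ')
  rw [Prod.Lex.toLex_le_toLex] at h
  simp only at h
  rcases h with h | ⟨h1, h2⟩
  · exact ⟨h.le, fun h' => absurd h (not_lt.mpr h')⟩
  · exact ⟨h1.le, fun _ => h2⟩

lemma opt_transfer {F : Finset (Finset X)} {lam : Finset X → X → ℝ} {W : Finset (X × Fin R)}
    {H : Finset X} {κ κ' : Finset X × (X → Fin (R + 1))} (hκ : IsOpt F lam W H κ)
    (hF : κ'.1 ∈ F) (hG : Gam κ' ⊆ W ∪ (Gam κ \ W))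
    (hP : Phi lam κ' (cnt (Gam κ \ W)) ≤ Phi lam κ (cnt (Gam κ \ W))) :
    IsOpt F lam W H κ' ∧ Gam κ' \ W = Gam κ \ W := by
  have hsub : Gam κ' \ W ⊆ Gam κ \ W := by
    intro y hy
    simp only [mem_sdiff] at hy
    have := hG hy.1
    simp only [mem_union] at this
    rcases this with h | h
    · exact absurd h hy.2
    · exact h
  have hfeas : Feas F W H κ' := ⟨hF, fun y hy => hκ.1.2 y (hsub hy)⟩
  have hPle : Phi lam κ' (cnt (Gam κ' \ W)) ≤ Phi lam κ' (cnt (Gam κ \ W)) := by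
    unfold Phi
    apply add_le_add_right
    apply Finset.sum_le_sum
    intro j _
    have := pen_mono (lam κ'.1) j (cnt_mono hsub j)
    linarith
  have hle : Phi lam κ' (cnt (Gam κ' \ W)) ≤ Phi lam κ (cnt (Gam κ \ W)) := hPle.trans hP
  have hopt := hκ.2 κ' hfeas
  have hsum := hopt.2 hle
  have hpt : ∀ j ∈ (univ : Finset (Fin R)), cnt (Gam κ' \ W) j = cnt (Gam κ \ W) j := by
    apply (Finset.sum_eq_sum_iff_of_le (fun j _ => cnt_mono hsub j)).mp
    apply le_antisymm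
    · exact Finset.sum_le_sum (fun j _ => cnt_mono hsub j)
    · exact hsum
  have hZ : Gam κ' \ W = Gam κ \ W := by
    apply Finset.Subset.antisymm hsub
    intro y hy
    have hc := hpt y.2 (mem_univ _)
    have heq : (Gam κ' \ W).filter (fun z => z.2 ≤ y.2) = (Gam κ \ W).filter (fun z => z.2 ≤ y.2) := by
      apply Finset.eq_of_subset_of_card_le (Finset.filter_subset_filter _ hsub)
      unfold cnt at hc
      exact hc.ge
    have : y ∈ (Gam κ' \ W).filter (fun z => z.2 ≤ y.2) := by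
      rw [heq]
      simp only [mem_filter]
      exact ⟨hy, le_refl _⟩
    exact (Finset.mem_filter.mp this).1
  refine ⟨⟨hfeas, ?_⟩, hZ⟩
  intro κ'' h''
  obtain ⟨h1, h2⟩ := hκ.2 κ'' h''
  refine ⟨hle.trans h1, ?_⟩
  intro h3
  rw [hZ]
  apply h2
  rw [hZ] at h3
  exact h3.trans hP

lemma opt_step {F : Finset (Finset X)} {lam : Finset X → X → ℝ} {W : Finset (X × Fin R)}
    {H : Finset X} {κ : Finset X × (X → Fin (R + 1))} (hκ : IsOpt F lam W H κ)
    {x : X} {i : Fin R} (hy : (x, i) ∈ Gam κ \ W) :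
    pen (lam κ.1) i (cnt (Gam κ \ W) i) - pen (lam κ.1) i (cnt (Gam κ \ W) i - 1)
      < lam κ.1 x := by
  by_contra hcon
  push Not at hcon
  set Z := Gam κ \ W with hZ
  have hyG : (x, i) ∈ Gam κ := (Finset.mem_sdiff.mp hy).1
  have hyG' : x ∈ κ.1 ∧ κ.2 x = i.castSucc := by
    simpa [Gam] using hyG
  set κ' : Finset X × (X → Fin (R + 1)) := (κ.1, Function.update κ.2 x i.succ) with hκ'
  set Z' := Gam κ' \ W with hZ'
  -- description of Z'
  have hdesc : ∀ y ∈ Z', (y.1 ≠ x ∧ y ∈ Z) ∨ (y.1 = x ∧ (y.2 : ℕ) = i + 1) := by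
    intro y hy'
    rw [hZ', Finset.mem_sdiff] at hy'
    obtain ⟨hG, hW⟩ := hy'
    simp only [Gam, mem_filter, mem_univ, true_and, hκ'] at hG
    by_cases hx : y.1 = x
    · right
      refine ⟨hx, ?_⟩
      have h2 := hG.2
      rw [hx, Function.update_self] at h2
      have h3 := congrArg Fin.val h2
      simp only [Fin.val_succ, Fin.val_castSucc] at h3
      omega
    · left
      refine ⟨hx, ?_⟩
      rw [hZ, Finset.mem_sdiff]
      refine ⟨?_, hW⟩
      simp only [Gam, mem_filter, mem_univ, true_and]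
      refine ⟨hG.1, ?_⟩
      have h2 := hG.2
      rwa [Function.update_of_ne hx] at h2
  have hfeas : Feas F W H κ' := by
    refine ⟨hκ.1.1, ?_⟩
    intro y hy'
    rcases hdesc y hy' with ⟨_, h⟩ | ⟨h, _⟩
    · exact hκ.1.2 y h
    · rw [h]; exact hκ.1.2 (x, i) hy
  have hcnt : ∀ j, cnt Z' j ≤ cnt Z j := by
    intro j
    unfold cnt
    apply Finset.card_le_card_of_injOn (fun y => if y.1 = x then (x, i) else y)
    · intro y hy'
      simp only [Finset.coe_filter, Set.mem_ofPred_eq] at hy'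
      simp only [Finset.coe_filter, Set.mem_ofPred_eq]
      rcases hdesc y hy'.1 with ⟨h1, h2⟩ | ⟨h1, h2⟩
      · rw [if_neg h1]; exact ⟨h2, hy'.2⟩
      · rw [if_pos h1]
        refine ⟨hy, ?_⟩
        have h3 := hy'.2
        change i ≤ j
        rw [Fin.le_def] at h3 ⊢
        omega
    · intro y hy1 y' hy2 heq
      simp only [Finset.coe_filter, Set.mem_ofPred_eq] at hy1 hy2
      simp only at heq
      rcases hdesc y hy1.1 with ⟨h1, h2⟩ | ⟨h1, h2⟩ <;>
        rcases hdesc y' hy2.1 with ⟨h3, h4⟩ | ⟨h3, h4⟩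
      · rwa [if_neg h1, if_neg h3] at heq
      · rw [if_neg h1, if_pos h3] at heq
        exact absurd (congrArg Prod.fst heq) h1
      · rw [if_pos h1, if_neg h3] at heq
        exact absurd (congrArg Prod.fst heq).symm h3
      · apply Prod.ext
        · rw [h1, h3]
        · apply Fin.ext
          rw [h2, h4]
  have hposi : 0 < cnt Z i := by
    unfold cnt
    rw [Finset.card_pos]
    exact ⟨(x, i), by simp only [mem_filter]; exact ⟨hy, le_refl _⟩⟩
  have hcnti : cnt Z' i ≤ cnt Z i - 1 := by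
    have hsub : Z'.filter (fun y => y.2 ≤ i) ⊆ (Z.filter (fun y => y.2 ≤ i)).erase (x, i) := by
      intro y hy'
      simp only [mem_filter] at hy'
      simp only [mem_erase, mem_filter]
      rcases hdesc y hy'.1 with ⟨h1, h2⟩ | ⟨h1, h2⟩
      · refine ⟨?_, h2, hy'.2⟩
        intro h
        exact h1 (by rw [h])
      · exfalso
        have h3 := hy'.2
        rw [Fin.le_def] at h3
        omega
    have h4 := Finset.card_le_card hsub
    rw [Finset.card_erase_of_mem (by simp only [mem_filter]; exact ⟨hy, le_refl _⟩)] at h4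
    exact h4
  -- Phi comparison
  have hbeta : ∑ z, 4 * ((κ'.2 z : ℕ) : ℝ) * lam κ'.1 z
      = ∑ z, 4 * ((κ.2 z : ℕ) : ℝ) * lam κ.1 z + 4 * lam κ.1 x := by
    rw [← Finset.add_sum_erase univ (fun z => 4 * ((κ'.2 z : ℕ) : ℝ) * lam κ'.1 z) (mem_univ x),
      ← Finset.add_sum_erase univ (fun z => 4 * ((κ.2 z : ℕ) : ℝ) * lam κ.1 z) (mem_univ x)]
    have h1 : ∑ z ∈ univ.erase x, 4 * ((κ'.2 z : ℕ) : ℝ) * lam κ'.1 z
        = ∑ z ∈ univ.erase x, 4 * ((κ.2 z : ℕ) : ℝ) * lam κ.1 z := by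
      apply Finset.sum_congr rfl
      intro z hz
      have hne : z ≠ x := (Finset.mem_erase.mp hz).1
      simp only [hκ', Function.update_of_ne hne]
    rw [h1]
    have h2 : ((κ'.2 x : ℕ) : ℝ) = (i : ℕ) + 1 := by
      simp [hκ']
    have h3 : ((κ.2 x : ℕ) : ℝ) = (i : ℕ) := by
      rw [hyG'.2]; simp
    rw [h2, h3]
    simp only [hκ']
    ring
  have hpen : ∑ j : Fin R, 4 * pen (lam κ'.1) j (cnt Z' j)
      ≤ ∑ j : Fin R, 4 * pen (lam κ.1) j (cnt Z j)
        - 4 * (pen (lam κ.1) i (cnt Z i) - pen (lam κ.1) i (cnt Z i - 1)) := by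
    rw [← Finset.add_sum_erase univ (fun j : Fin R => 4 * pen (lam κ'.1) j (cnt Z' j)) (mem_univ i),
      ← Finset.add_sum_erase univ (fun j : Fin R => 4 * pen (lam κ.1) j (cnt Z j)) (mem_univ i)]
    have h1 : ∑ j ∈ univ.erase i, 4 * pen (lam κ'.1) (j : ℕ) (cnt Z' j)
        ≤ ∑ j ∈ univ.erase i, 4 * pen (lam κ.1) (j : ℕ) (cnt Z j) := by
      apply Finset.sum_le_sum
      intro j _
      have := pen_mono (lam κ.1) j (hcnt j)
      simp only [hκ']
      linarith
    have h2 := pen_mono (lam κ.1) i hcnti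
    simp only [hκ'] at h1 ⊢
    linarith
  have hle : Phi lam κ' (cnt Z') ≤ Phi lam κ (cnt Z) := by
    unfold Phi
    rw [hbeta]
    linarith
  have hsum := (hκ.2 κ' hfeas).2 hle
  have hlt : ∑ j, cnt Z' j < ∑ j, cnt Z j := by
    apply Finset.sum_lt_sum (fun j _ => hcnt j)
    exact ⟨i, mem_univ _, by omega⟩
  have : ∑ j, cnt Z j ≤ ∑ j, cnt Z' j := hsum
  omega

end Encode

end Vale.Agent.P034
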