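import Vale.Agent.P034.Prob

namespace Vale.Agent.P034

open Finset

section Main

variable {X : Type*} [Fintype X] [DecidableEq X] {R : ℕ}

/-- Size-normalised degree distribution of the weights inside `H`. -/
noncomputable def degm (g : Finset X → ℝ) (H : Finset X) (x : X) : ℝ :=
  (∑ S ∈ H.powerset, if x ∈ S then g S / S.card else 0) / ∑ S ∈ H.powerset, g S

lemma degm_nonneg {g : Finset X → ℝ} (hg : ∀ S, 0 ≤ g S) (H : Finset X) (x : X) :
    0 ≤ degm g H x := by
  unfold degm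
  apply div_nonneg
  · apply Finset.sum_nonneg
    intro S _
    split_ifs
    · exact div_nonneg (hg S) (by positivity)
    · exact le_refl _
  · exact Finset.sum_nonneg (fun S _ => hg S)

lemma sum_mul_degm (g : Finset X → ℝ) (H : Finset X) (b : X → ℝ) :
    ∑ x, b x * degm g H x
      = (∑ S ∈ H.powerset, g S / S.card * ∑ x ∈ S, b x) / ∑ S ∈ H.powerset, g S := by
  unfold degm
  simp only [← mul_div_assoc]
  rw [← Finset.sum_div]
  congr 1
  simp only [Finset.mul_sum]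
  rw [Finset.sum_comm]
  apply Finset.sum_congr rfl
  intro S _
  simp only [mul_ite, mul_zero]
  rw [Finset.sum_ite_mem, Finset.univ_inter]
  apply Finset.sum_congr rfl
  intro x _
  ring

lemma sum_degm_le {g : Finset X → ℝ} (hg : ∀ S, 0 ≤ g S) {H : Finset X} :
    ∑ x, degm g H x ≤ 1 := by
  have h := sum_mul_degm g H (fun _ => 1)
  simp only [one_mul] at h
  rw [h]
  apply div_le_one_of_le₀
  · apply Finset.sum_le_sum
    intro S _
    rw [Finset.sum_const, nsmul_eq_mul, mul_one]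
    rcases Nat.eq_zero_or_pos S.card with h0 | hpos
    · rw [h0]; simp; exact hg S
    · rw [div_mul_cancel₀]
      exact_mod_cast hpos.ne'
  · exact Finset.sum_nonneg (fun S _ => hg S)

lemma aw_ge {W : Finset (X × Fin R)} {κ : Finset X × (X → Fin (R + 1))} (hW : Gam κ ⊆ W)
    {x : X} (hx : x ∈ κ.1) : 4 * (1 / 16 : ℝ) ^ (κ.2 x : ℕ) ≤ aw W x := by
  unfold aw
  apply mul_le_mul_of_nonneg_left _ (by norm_num)
  have hnn : ∀ i : Fin R, 0 ≤ (1 / 16 : ℝ) ^ (i : ℕ) * (if (x, i) ∈ W then (1 : ℝ) else 0) := by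
    intro i
    split_ifs <;> positivity
  rcases Fin.eq_castSucc_or_eq_last (κ.2 x) with ⟨i, hi⟩ | hl
  · have hmem : (x, i) ∈ W := by
      apply hW
      simp only [Gam, mem_filter, mem_univ, true_and]
      exact ⟨hx, hi⟩
    have h1 := Finset.single_le_sum (f := fun i : Fin R =>
      (1 / 16 : ℝ) ^ (i : ℕ) * (if (x, i) ∈ W then (1 : ℝ) else 0)) (fun i _ => hnn i) (mem_univ i)
    simp only [if_pos hmem, mul_one] at h1
    rw [hi, Fin.val_castSucc]
    have : (0 : ℝ) ≤ (1 / 16 : ℝ) ^ R := by positivity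
    linarith
  · rw [hl, Fin.val_last]
    have := Finset.sum_nonneg (fun i (_ : i ∈ (univ : Finset (Fin R))) => hnn i)
    linarith

lemma half_le_of_config {g : Finset X → ℝ} (hg : ∀ S, 0 ≤ g S) (g0 : g ∅ = 0)
    {κ : Finset X × (X → Fin (R + 1))} (hκ : 1 ≤ ∑ S ∈ κ.1.powerset, g S)
    {W : Finset (X × Fin R)} (hW : Gam κ ⊆ W)
    (hP : ∑ x, 4 * ((κ.2 x : ℕ) : ℝ) * degm g κ.1 x ≤ 1) :
    1 / 2 ≤ ∑ S : Finset X, g S * ∏ x ∈ S, aw W x := by
  have hG : 0 < ∑ S ∈ κ.1.powerset, g S := by linarith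
  rw [sum_mul_degm, div_le_one hG] at hP
  have hS : ∀ S ∈ κ.1.powerset,
      g S - (1 / 2) * (g S / S.card * ∑ x ∈ S, 4 * ((κ.2 x : ℕ) : ℝ))
        ≤ g S * ∏ x ∈ S, aw W x := by
    intro S hS
    rw [Finset.mem_powerset] at hS
    rcases Finset.eq_empty_or_nonempty S with rfl | hne
    · simp [g0]
    have hc : 0 < S.card := Finset.card_pos.mpr hne
    have hcR : (0 : ℝ) < S.card := by exact_mod_cast hc
    have hprod0 : 0 ≤ ∏ x ∈ S, aw W x := Finset.prod_nonneg (fun x _ => aw_nonneg W x)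
    have hsum : ∑ x ∈ S, 4 * ((κ.2 x : ℕ) : ℝ) = 4 * ((∑ x ∈ S, (κ.2 x : ℕ) : ℕ) : ℝ) := by
      rw [← Finset.mul_sum]; push_cast; rfl
    rw [hsum]
    set c := ∑ x ∈ S, (κ.2 x : ℕ) with hcdef
    have hfac : g S - (1 / 2) * (g S / S.card * (4 * (c : ℝ))) = g S * (1 - 2 * c / S.card) := by
      field_simp
      ring
    rw [hfac]
    apply mul_le_mul_of_nonneg_left _ (hg S)
    by_cases hle : 2 * c ≤ S.card
    · have h1 : (1 : ℝ) ≤ ∏ x ∈ S, aw W x := by
        calc (1 : ℝ) ≤ 4 ^ S.card * (1 / 16 : ℝ) ^ c := by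
              have e1 : (1 / 16 : ℝ) ^ c = (1 / 4 : ℝ) ^ (2 * c) := by
                rw [pow_mul]; norm_num
              rw [e1]
              obtain ⟨d, hd⟩ := Nat.exists_eq_add_of_le hle
              rw [hd, pow_add]
              have e2 : (4 : ℝ) ^ (2 * c) * (1 / 4 : ℝ) ^ (2 * c) = 1 := by
                rw [← mul_pow]; norm_num
              have e3 : (1 : ℝ) ≤ 4 ^ d := one_le_pow₀ (by norm_num)
              calc (1 : ℝ) ≤ 4 ^ d := e3
                _ = ((4 : ℝ) ^ (2 * c) * (1 / 4 : ℝ) ^ (2 * c)) * 4 ^ d := by rw [e2, one_mul]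
                _ = 4 ^ (2 * c) * 4 ^ d * (1 / 4 : ℝ) ^ (2 * c) := by ring
          _ = ∏ x ∈ S, 4 * (1 / 16 : ℝ) ^ (κ.2 x : ℕ) := by
              rw [Finset.prod_mul_distrib, Finset.prod_const, Finset.prod_pow_eq_pow_sum]
          _ ≤ ∏ x ∈ S, aw W x := by
              apply Finset.prod_le_prod
              · intro x _; positivity
              · intro x hx
                exact aw_ge hW (hS hx)
      have h2 : 0 ≤ 2 * (c : ℝ) / S.card := by positivity
      linarith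
    · push Not at hle
      have h3 : (1 : ℝ) < 2 * (c : ℝ) / S.card := by
        rw [lt_div_iff₀ hcR, one_mul]
        exact_mod_cast hle
      linarith
  have hsum := Finset.sum_le_sum hS
  rw [Finset.sum_sub_distrib, ← Finset.mul_sum] at hsum
  have hsub : ∑ S ∈ κ.1.powerset, g S * ∏ x ∈ S, aw W x
      ≤ ∑ S : Finset X, g S * ∏ x ∈ S, aw W x := by
    apply Finset.sum_le_sum_of_subset_of_nonneg (subset_univ _)
    intro S _ _
    exact mul_nonneg (hg S) (Finset.prod_nonneg (fun x _ => aw_nonneg W x))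
  linarith

lemma Phi_le_one {F : Finset (Finset X)} {lam : Finset X → X → ℝ}
    (hlam0 : ∀ H ∈ F, ∀ x, 0 ≤ lam H x) (hlam1 : ∀ H ∈ F, ∑ x, lam H x ≤ 1)
    {W : Finset (X × Fin R)} {H : Finset X} (hH : H ∈ F)
    {κ : Finset X × (X → Fin (R + 1))} (hκ : IsOpt F lam W H κ) :
    Phi lam κ (cnt (Gam κ \ W)) ≤ 1 := by
  have hfeas : Feas F W H ((H, fun _ => 0) : Finset X × (X → Fin (R + 1))) := by
    refine ⟨hH, ?_⟩
    intro y hy
    simp only [Gam, mem_filter, mem_univ, true_and, mem_sdiff] at hy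
    exact hy.1.1
  refine ((hκ.2 _ hfeas).1).trans ?_
  unfold Phi
  simp only [Fin.val_zero, Nat.cast_zero, mul_zero, zero_mul, Finset.sum_const_zero, zero_add]
  have h1 : ∀ j : Fin R, 4 * pen (lam H) j (cnt (Gam ((H, fun _ => 0) :
      Finset X × (X → Fin (R + 1))) \ W) j) ≤ (1 / 2) * (1 / 2 : ℝ) ^ (j : ℕ) := by
    intro j
    unfold pen
    have h2 := (topSum_le (lam H) (hlam0 H hH) (2 ^ ((j : ℕ) + 3) *
      cnt (Gam ((H, fun _ => 0) : Finset X × (X → Fin (R + 1))) \ W) j)).trans (hlam1 H hH)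
    rw [show (1 / 2 : ℝ) * (1 / 2 : ℝ) ^ (j : ℕ) = 4 * (1 / ((2 ^ ((j : ℕ) + 3) : ℕ) : ℝ)) by
      push_cast
      rw [pow_add, div_pow, one_pow]
      field_simp
      norm_num]
    apply mul_le_mul_of_nonneg_left _ (by norm_num)
    apply div_le_div_of_nonneg_right h2
    positivity
  refine (Finset.sum_le_sum (fun j _ => h1 j)).trans ?_
  refine (geom_sum_fin_le R (1 / 2) (by norm_num)).trans ?_
  norm_num

/-- Main rounding theorem, normalised form. -/
theorem rounding (F : Finset (Finset X)) (g : Finset X → ℝ) (hg : ∀ S, 0 ≤ g S)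
    (g0 : g ∅ = 0) (hcov : ∀ H ∈ F, 1 ≤ ∑ S ∈ H.powerset, g S) {p : ℝ} (hp : 0 < p)
    (hcost : ∑ S : Finset X, g S * (2 ^ 18 * p) ^ S.card ≤ 1) :
    ∃ G : Finset (Finset X), (∀ H ∈ F, ∃ S ∈ G, S ⊆ H) ∧ ∑ S ∈ G, p ^ S.card ≤ 1 / 2 := by
  classical
  -- choice of the number of levels
  obtain ⟨n, hn⟩ := exists_pow_lt_of_lt_one hp (by norm_num : (1 / 2 : ℝ) < 1)
  obtain ⟨R, hR⟩ : ∃ R : ℕ, (1 / 2 : ℝ) ^ (3 * R + 11) ≤ p := by
    refine ⟨n, le_trans ?_ hn.le⟩
    apply pow_le_pow_of_le_one (by norm_num) (by norm_num)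
    omega
  set q : Fin R → ℝ := fun j => min 1 (p / Qinv j) with hq
  have hQpos : ∀ j : ℕ, 0 < Qinv j := by intro j; unfold Qinv; positivity
  have hq0 : ∀ j, 0 ≤ q j := by
    intro j
    exact le_min zero_le_one (div_nonneg hp.le (hQpos j).le)
  have hq1 : ∀ j, q j ≤ 1 := fun j => min_le_left _ _
  have hpq : ∀ j : Fin R, (1 - q j) * p ≤ q j * Qinv j := by
    intro j
    rcases le_total 1 (p / Qinv j) with h | h
    · have : q j = 1 := min_eq_left h
      rw [this]
      have := hQpos j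
      simp; linarith
    · have h1 : q j = p / Qinv j := min_eq_right h
      have h2 : q j * Qinv j = p := by
        rw [h1, div_mul_cancel₀ _ (hQpos j).ne']
      rw [h2]
      have := hq0 j
      nlinarith
  set lam : Finset X → X → ℝ := degm g with hlam
  have hlam0 : ∀ H ∈ F, ∀ x, 0 ≤ lam H x := fun H _ x => degm_nonneg hg H x
  have hlam1 : ∀ H ∈ F, ∑ x, lam H x ≤ 1 := fun H _ => sum_degm_le hg
  have hex : ∀ (W : Finset (X × Fin R)) (H : Finset X),
      ∃ κ : Finset X × (X → Fin (R + 1)), H ∈ F → IsOpt F lam W H κ := by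
    intro W H
    by_cases hH : H ∈ F
    · obtain ⟨κ, hκ⟩ := exists_isOpt F lam W hH
      exact ⟨κ, fun _ => hκ⟩
    · exact ⟨(∅, fun _ => 0), fun h => absurd h hH⟩
  choose κ hκ using hex
  have hEcost := expected_cost F lam q hq0 hq1 hp.le hpq κ (fun W H hH => hκ W H hH)
  -- expected number
  have hEa : 4 * (∑ i : Fin R, (1 / 16 : ℝ) ^ (i : ℕ) * q i + (1 / 16 : ℝ) ^ R)
      ≤ (1 / 16) * (2 ^ 18 * p) := by
    have h1 : ∀ i : Fin R, (1 / 16 : ℝ) ^ (i : ℕ) * q i ≤ (2 ^ 11 * p) * (1 / 2 : ℝ) ^ (i : ℕ) := by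
      intro i
      have h2 : q i ≤ p / Qinv i := min_le_right _ _
      calc (1 / 16 : ℝ) ^ (i : ℕ) * q i ≤ (1 / 16 : ℝ) ^ (i : ℕ) * (p / Qinv i) :=
            mul_le_mul_of_nonneg_left h2 (by positivity)
        _ = (2 ^ 11 * p) * (1 / 2 : ℝ) ^ (i : ℕ) := by
            unfold Qinv
            rw [pow_add, pow_mul]
            have e1 : (1 / 16 : ℝ) ^ (i : ℕ) = ((1 / 2 : ℝ) ^ 3) ^ (i : ℕ) * (1 / 2 : ℝ) ^ (i : ℕ) := by
              rw [← mul_pow]; norm_num
            rw [e1]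
            field_simp
    have h3 : (1 / 16 : ℝ) ^ R ≤ (2 ^ 11 * p) * (1 / 2 : ℝ) ^ R := by
      have e1 : (1 / 16 : ℝ) ^ R = (1 / 2 : ℝ) ^ (3 * R + 11) * (2 ^ 11 * (1 / 2 : ℝ) ^ R) := by
        rw [pow_add, pow_mul]
        have e2 : (1 / 16 : ℝ) ^ R = ((1 / 2 : ℝ) ^ 3) ^ R * (1 / 2 : ℝ) ^ R := by
          rw [← mul_pow]; norm_num
        rw [e2]
        have e3 : (1 / 2 : ℝ) ^ 11 * 2 ^ 11 = 1 := by norm_num
        calc ((1 / 2 : ℝ) ^ 3) ^ R * (1 / 2 : ℝ) ^ R
            = ((1 / 2 : ℝ) ^ 3) ^ R * (1 / 2 : ℝ) ^ R * ((1 / 2 : ℝ) ^ 11 * 2 ^ 11) := by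
              rw [e3, mul_one]
          _ = _ := by ring
      rw [e1]
      calc (1 / 2 : ℝ) ^ (3 * R + 11) * (2 ^ 11 * (1 / 2 : ℝ) ^ R)
          ≤ p * (2 ^ 11 * (1 / 2 : ℝ) ^ R) := mul_le_mul_of_nonneg_right hR (by positivity)
        _ = _ := by ring
    have h4 : ∑ i : Fin R, (2 ^ 11 * p) * (1 / 2 : ℝ) ^ (i : ℕ)
        = (2 ^ 11 * p) * (2 - 2 * (1 / 2 : ℝ) ^ R) := by
      rw [← Finset.mul_sum, Fin.sum_univ_eq_sum_range (fun j => (1 / 2 : ℝ) ^ j) R,
        geom_sum_eq (by norm_num) R]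
      congr 1
      field_simp
      ring
    have h5 := Finset.sum_le_sum (fun i (_ : i ∈ (univ : Finset (Fin R))) => h1 i)
    rw [h4] at h5
    have h6 : 0 ≤ (2 ^ 11 * p) * (1 / 2 : ℝ) ^ R := by positivity
    nlinarith
  have hEN : ∑ W : Finset (X × Fin R), rho (fun y => q y.2) W *
      ∑ S : Finset X, g S * ∏ x ∈ S, aw W x ≤ 1 / 16 := by
    calc ∑ W : Finset (X × Fin R), rho (fun y => q y.2) W *
          ∑ S : Finset X, g S * ∏ x ∈ S, aw W x
        = ∑ S : Finset X, g S * ∑ W : Finset (X × Fin R), rho (fun y => q y.2) W *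
          ∏ x ∈ S, aw W x := by
          simp only [Finset.mul_sum]
          rw [Finset.sum_comm]
          apply Finset.sum_congr rfl
          intro S _
          apply Finset.sum_congr rfl
          intro W _
          ring
      _ ≤ ∑ S : Finset X, (1 / 16) * (g S * (2 ^ 18 * p) ^ S.card) := by
          apply Finset.sum_le_sum
          intro S _
          rw [sum_rho_aw]
          rcases Finset.eq_empty_or_nonempty S with rfl | hne
          · simp [g0]
          have hc : 0 < S.card := Finset.card_pos.mpr hne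
          have hnn : 0 ≤ 4 * (∑ i : Fin R, (1 / 16 : ℝ) ^ (i : ℕ) * q i + (1 / 16 : ℝ) ^ R) := by
            have : 0 ≤ ∑ i : Fin R, (1 / 16 : ℝ) ^ (i : ℕ) * q i :=
              Finset.sum_nonneg (fun i _ => mul_nonneg (by positivity) (hq0 i))
            positivity
          have h7 := pow_le_pow_left₀ hnn hEa S.card
          rw [mul_pow (1 / 16 : ℝ) (2 ^ 18 * p)] at h7
          have h8 : (1 / 16 : ℝ) ^ S.card ≤ 1 / 16 := by
            calc (1 / 16 : ℝ) ^ S.card ≤ (1 / 16 : ℝ) ^ 1 :=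
                  pow_le_pow_of_le_one (by norm_num) (by norm_num) hc
              _ = 1 / 16 := by norm_num
          have h9 : 0 ≤ (2 ^ 18 * p) ^ S.card := by positivity
          calc g S * (4 * (∑ i : Fin R, (1 / 16 : ℝ) ^ (i : ℕ) * q i + (1 / 16 : ℝ) ^ R)) ^ S.card
              ≤ g S * ((1 / 16 : ℝ) ^ S.card * (2 ^ 18 * p) ^ S.card) :=
                mul_le_mul_of_nonneg_left h7 (hg S)
            _ ≤ g S * ((1 / 16) * (2 ^ 18 * p) ^ S.card) := by
                apply mul_le_mul_of_nonneg_left _ (hg S)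
                exact mul_le_mul_of_nonneg_right h8 h9
            _ = _ := by ring
      _ = (1 / 16) * ∑ S : Finset X, g S * (2 ^ 18 * p) ^ S.card := by rw [Finset.mul_sum]
      _ ≤ 1 / 16 := mul_le_of_le_one_right (by norm_num) hcost
  -- pick a good outcome
  have hrho0 : ∀ W : Finset (X × Fin R), 0 ≤ rho (fun y : X × Fin R => q y.2) W :=
    rho_nonneg (fun y => hq0 y.2) (fun y => hq1 y.2)
  obtain ⟨W, hWpos⟩ : ∃ W : Finset (X × Fin R),
      ∑ Z ∈ (F.image (fun H => Gam (κ W H) \ W)).erase ∅, p ^ Z.card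
        + ∑ S : Finset X, g S * ∏ x ∈ S, aw W x < 1 / 2 := by
    by_contra hcon
    push Not at hcon
    have h10 : ∑ W : Finset (X × Fin R), rho (fun y => q y.2) W * (1 / 2)
        ≤ ∑ W : Finset (X × Fin R), rho (fun y => q y.2) W *
          (∑ Z ∈ (F.image (fun H => Gam (κ W H) \ W)).erase ∅, p ^ Z.card
            + ∑ S : Finset X, g S * ∏ x ∈ S, aw W x) :=
      Finset.sum_le_sum (fun W _ => mul_le_mul_of_nonneg_left (hcon W) (hrho0 W))
    rw [← Finset.sum_mul, sum_rho] at h10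
    simp only [mul_add] at h10
    rw [Finset.sum_add_distrib] at h10
    linarith
  have hNnn : 0 ≤ ∑ S : Finset X, g S * ∏ x ∈ S, aw W x :=
    Finset.sum_nonneg (fun S _ => mul_nonneg (hg S)
      (Finset.prod_nonneg (fun x _ => aw_nonneg W x)))
  have hCnn : 0 ≤ ∑ Z ∈ (F.image (fun H => Gam (κ W H) \ W)).erase ∅, p ^ Z.card :=
    Finset.sum_nonneg (fun Z _ => by positivity)
  set GG := (F.image (fun H => Gam (κ W H) \ W)).erase ∅ with hGG
  have hne : ∀ H ∈ F, Gam (κ W H) \ W ≠ ∅ := by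
    intro H hH hemp
    have hopt := hκ W H hH
    have hP := Phi_le_one hlam0 hlam1 hH hopt
    have hsub : Gam (κ W H) ⊆ W := Finset.sdiff_eq_empty_iff_subset.mp hemp
    have hP2 : ∑ x, 4 * (((κ W H).2 x : ℕ) : ℝ) * degm g (κ W H).1 x ≤ 1 := by
      refine le_trans ?_ hP
      unfold Phi
      have : 0 ≤ ∑ j : Fin R, 4 * pen (lam (κ W H).1) j (cnt (Gam (κ W H) \ W) j) :=
        Finset.sum_nonneg (fun j _ => mul_nonneg (by norm_num) (pen_nonneg _ _ _))
      linarith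
    have := half_le_of_config hg g0 (hcov _ hopt.1.1) hsub hP2
    linarith
  refine ⟨GG.image (fun Z => Z.image Prod.fst), ?_, ?_⟩
  · intro H hH
    refine ⟨(Gam (κ W H) \ W).image Prod.fst, ?_, ?_⟩
    · apply Finset.mem_image_of_mem
      rw [hGG, Finset.mem_erase]
      exact ⟨hne H hH, Finset.mem_image_of_mem _ hH⟩
    · intro x hx
      rw [Finset.mem_image] at hx
      obtain ⟨y, hy, rfl⟩ := hx
      exact (hκ W H hH).1.2 y hy
  · have hcard : ∀ Z ∈ GG, (Z.image Prod.fst).card = Z.card := by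
      intro Z hZ
      rw [hGG, Finset.mem_erase, Finset.mem_image] at hZ
      obtain ⟨_, H, _, rfl⟩ := hZ
      apply Finset.card_image_of_injOn
      intro y hy y' hy' heq
      simp only [Gam, Finset.coe_sdiff, Set.mem_sdiff, Finset.mem_coe, mem_filter, mem_univ,
        true_and] at hy hy'
      apply Prod.ext heq
      have h1 := hy.1.2
      have h2 := hy'.1.2
      rw [heq, h2] at h1
      exact (Fin.castSucc_injective _ h1).symm
    have hle : ∑ S ∈ GG.image (fun Z => Z.image Prod.fst), p ^ S.card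
        ≤ ∑ Z ∈ GG, p ^ (Z.image Prod.fst).card := by
      apply Finset.sum_image_le_of_nonneg
      intro S _
      positivity
    have heq : ∑ Z ∈ GG, p ^ (Z.image Prod.fst).card = ∑ Z ∈ GG, p ^ Z.card :=
      Finset.sum_congr rfl (fun Z hZ => by rw [hcard Z hZ])
    rw [heq] at hle
    linarith

end Main

end Vale.Agent.P034
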