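import Vale.Agent.P034.Count

namespace Vale.Agent.P034

open Finset

section Prob

lemma sum_finset_prod_ite {Y : Type*} [Fintype Y] [DecidableEq Y] (f g : Y → ℝ) :
    ∑ W : Finset Y, ∏ y, (if y ∈ W then f y else g y) = ∏ y, (f y + g y) := by
  rw [Fintype.prod_add]
  apply Finset.sum_congr rfl
  intro W _
  rw [Finset.prod_ite]
  congr 1
  · apply Finset.prod_congr _ (fun _ _ => rfl)
    ext y; simp
  · apply Finset.prod_congr _ (fun _ _ => rfl)
    ext y; simp

/-- Weight of a subset under independent selection. -/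
noncomputable def rho {Y : Type*} [Fintype Y] [DecidableEq Y] (q : Y → ℝ) (W : Finset Y) : ℝ :=
  ∏ y, if y ∈ W then q y else 1 - q y

lemma rho_nonneg {Y : Type*} [Fintype Y] [DecidableEq Y] {q : Y → ℝ} (h0 : ∀ y, 0 ≤ q y)
    (h1 : ∀ y, q y ≤ 1) (W : Finset Y) : 0 ≤ rho q W := by
  unfold rho
  apply Finset.prod_nonneg
  intro y _
  split_ifs
  · exact h0 y
  · have := h1 y; linarith

lemma sum_rho {Y : Type*} [Fintype Y] [DecidableEq Y] (q : Y → ℝ) :
    ∑ W : Finset Y, rho q W = 1 := by
  unfold rho
  rw [sum_finset_prod_ite q (fun y => 1 - q y)]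
  simp

lemma sum_rho_mem {Y : Type*} [Fintype Y] [DecidableEq Y] (q : Y → ℝ) (i : Y) :
    ∑ A : Finset Y, rho q A * (if i ∈ A then (1 : ℝ) else 0) = q i := by
  have h : ∀ A : Finset Y, rho q A * (if i ∈ A then (1 : ℝ) else 0)
      = ∏ y, if y ∈ A then q y else (if y = i then 0 else 1 - q y) := by
    intro A
    unfold rho
    by_cases hi : i ∈ A
    · rw [if_pos hi, mul_one]
      apply Finset.prod_congr rfl
      intro y _
      by_cases hy : y ∈ A
      · rw [if_pos hy, if_pos hy]
      · rw [if_neg hy, if_neg hy, if_neg]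
        rintro rfl
        exact hy hi
    · rw [if_neg hi, mul_zero]
      symm
      apply Finset.prod_eq_zero (mem_univ i)
      rw [if_neg hi, if_pos rfl]
  rw [Finset.sum_congr rfl (fun A _ => h A), sum_finset_prod_ite]
  rw [← Finset.mul_prod_erase univ _ (mem_univ i)]
  rw [if_pos rfl, add_zero]
  rw [Finset.prod_eq_one, mul_one]
  intro y hy
  rw [if_neg (Finset.mem_erase.mp hy).1]
  ring

variable {X : Type*} [Fintype X] [DecidableEq X] {R : ℕ}

/-- Subsets of the product as functions. -/
def fib : (X → Finset (Fin R)) ≃ Finset (X × Fin R) where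
  toFun ω := univ.filter (fun y => y.2 ∈ ω y.1)
  invFun W := fun x => univ.filter (fun i => (x, i) ∈ W)
  left_inv ω := by
    funext x
    ext i
    simp
  right_inv W := by
    ext y
    simp

lemma sum_rho_prod (q : Fin R → ℝ) (φ : X → Finset (Fin R) → ℝ) :
    ∑ W : Finset (X × Fin R), rho (fun y => q y.2) W *
      ∏ x, φ x (univ.filter (fun i => (x, i) ∈ W))
      = ∏ x, ∑ A : Finset (Fin R), rho q A * φ x A := by
  rw [← Equiv.sum_comp (fib (X := X) (R := R))]
  rw [Finset.prod_univ_sum (fun _ : X => (univ : Finset (Finset (Fin R))))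
    (fun x A => rho q A * φ x A)]
  rw [Fintype.piFinset_univ]
  apply Finset.sum_congr rfl
  intro ω _
  rw [Finset.prod_mul_distrib]
  congr 1
  · unfold rho
    rw [Fintype.prod_prod_type]
    apply Finset.prod_congr rfl
    intro x _
    apply Finset.prod_congr rfl
    intro i _
    simp [fib]
  · apply Finset.prod_congr rfl
    intro x _
    congr 1
    ext i
    simp [fib]

/-- The random weight of `x`. -/
noncomputable def aw (W : Finset (X × Fin R)) (x : X) : ℝ :=
  4 * (∑ i : Fin R, (1 / 16 : ℝ) ^ (i : ℕ) * (if (x, i) ∈ W then 1 else 0) + (1 / 16 : ℝ) ^ R)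

lemma aw_nonneg (W : Finset (X × Fin R)) (x : X) : 0 ≤ aw W x := by
  unfold aw
  have : 0 ≤ ∑ i : Fin R, (1 / 16 : ℝ) ^ (i : ℕ) * (if (x, i) ∈ W then (1 : ℝ) else 0) := by
    apply Finset.sum_nonneg
    intro i _
    split_ifs <;> positivity
  positivity

lemma sum_rho_aw (q : Fin R → ℝ) (S : Finset X) :
    ∑ W : Finset (X × Fin R), rho (fun y => q y.2) W * ∏ x ∈ S, aw W x
      = (4 * (∑ i : Fin R, (1 / 16 : ℝ) ^ (i : ℕ) * q i + (1 / 16 : ℝ) ^ R)) ^ S.card := by
  set φ : X → Finset (Fin R) → ℝ := fun x A => if x ∈ S then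
    4 * (∑ i : Fin R, (1 / 16 : ℝ) ^ (i : ℕ) * (if i ∈ A then 1 else 0) + (1 / 16 : ℝ) ^ R)
    else 1 with hφ
  have h1 : ∀ W : Finset (X × Fin R), ∏ x ∈ S, aw W x
      = ∏ x, φ x (univ.filter (fun i => (x, i) ∈ W)) := by
    intro W
    simp only [hφ]
    rw [Finset.prod_ite_mem, Finset.univ_inter]
    apply Finset.prod_congr rfl
    intro x _
    unfold aw
    simp
  rw [Finset.sum_congr rfl (fun W _ => by rw [h1 W]), sum_rho_prod]
  have h2 : ∀ x : X, ∑ A : Finset (Fin R), rho q A * φ x A = if x ∈ S then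
      4 * (∑ i : Fin R, (1 / 16 : ℝ) ^ (i : ℕ) * q i + (1 / 16 : ℝ) ^ R) else 1 := by
    intro x
    by_cases hx : x ∈ S
    · simp only [hφ, if_pos hx]
      have h3 : ∀ A : Finset (Fin R), rho q A *
          (4 * (∑ i : Fin R, (1 / 16 : ℝ) ^ (i : ℕ) * (if i ∈ A then 1 else 0) + (1 / 16 : ℝ) ^ R))
          = ∑ i : Fin R, (4 * (1 / 16 : ℝ) ^ (i : ℕ)) * (rho q A * (if i ∈ A then (1 : ℝ) else 0))
            + 4 * (1 / 16 : ℝ) ^ R * rho q A := by
        intro A
        rw [mul_add, mul_add, ← mul_assoc, Finset.mul_sum]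
        congr 1
        · apply Finset.sum_congr rfl
          intro i _
          ring
        · ring
      rw [Finset.sum_congr rfl (fun A _ => h3 A), Finset.sum_add_distrib, Finset.sum_comm,
        ← Finset.mul_sum, sum_rho, mul_one, mul_add, Finset.mul_sum]
      congr 1
      apply Finset.sum_congr rfl
      intro i _
      rw [← Finset.mul_sum, sum_rho_mem]
      ring
    · simp only [hφ, if_neg hx, mul_one]
      exact sum_rho q
  rw [Finset.prod_congr rfl (fun x _ => h2 x), Finset.prod_ite_mem, Finset.univ_inter,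
    Finset.prod_const]

/-- Expected cost of the selected family. -/
lemma expected_cost (F : Finset (Finset X)) (lam : Finset X → X → ℝ) (q : Fin R → ℝ)
    (hq0 : ∀ j, 0 ≤ q j) (hq1 : ∀ j, q j ≤ 1) {p : ℝ} (hp : 0 ≤ p)
    (hpq : ∀ j : Fin R, (1 - q j) * p ≤ q j * Qinv j)
    (κ : Finset (X × Fin R) → Finset X → Finset X × (X → Fin (R + 1)))
    (hκ : ∀ W, ∀ H ∈ F, IsOpt F lam W H (κ W H)) :
    ∑ W : Finset (X × Fin R), rho (fun y => q y.2) W *
      ∑ Z ∈ (F.image (fun H => Gam (κ W H) \ W)).erase ∅, p ^ Z.card ≤ 2 / 5 := by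
  classical
  have hr0 : ∀ W : Finset (X × Fin R), 0 ≤ rho (fun y : X × Fin R => q y.2) W :=
    rho_nonneg (fun y => hq0 y.2) (fun y => hq1 y.2)
  -- the good pairs
  set good : Finset (X × Fin R) → Finset (X × Fin R) → Prop :=
    fun W Z => Z ≠ ∅ ∧ Z ⊆ Uset F lam W (cnt Z) with hgood
  have hstep : ∀ W Z : Finset (X × Fin R), Disjoint W Z →
      rho (fun y => q y.2) W * p ^ Z.card ≤ rho (fun y => q y.2) (W ∪ Z) * wt Z := by
    intro W Z hdis
    have e1 : p ^ Z.card = ∏ y, if y ∈ Z then p else 1 := by
      rw [Finset.prod_ite]; simp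
    have e2 : wt Z = ∏ y : X × Fin R, if y ∈ Z then Qinv y.2 else 1 := by
      unfold wt
      rw [Finset.prod_ite]
      simp only [Finset.prod_const_one, mul_one]
      apply Finset.prod_congr _ (fun _ _ => rfl)
      ext; simp
    rw [e1, e2]
    unfold rho
    rw [← Finset.prod_mul_distrib, ← Finset.prod_mul_distrib]
    apply Finset.prod_le_prod
    · intro y _
      apply mul_nonneg
      · split_ifs
        · exact hq0 y.2
        · have := hq1 y.2; linarith
      · split_ifs
        · exact hp
        · exact zero_le_one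
    · intro y _
      by_cases hW : y ∈ W
      · have hZ : y ∉ Z := Finset.disjoint_left.mp hdis hW
        simp [hW, hZ]
      · by_cases hZ : y ∈ Z
        · simp only [hW, hZ, if_true, if_false, mem_union, or_true]
          exact hpq y.2
        · simp [hW, hZ]
  calc ∑ W : Finset (X × Fin R), rho (fun y => q y.2) W *
        ∑ Z ∈ (F.image (fun H => Gam (κ W H) \ W)).erase ∅, p ^ Z.card
      ≤ ∑ W : Finset (X × Fin R), ∑ Z : Finset (X × Fin R),
          (if Disjoint W Z ∧ good (W ∪ Z) Z then rho (fun y => q y.2) (W ∪ Z) * wt Z else 0) := by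
        apply Finset.sum_le_sum
        intro W _
        rw [Finset.mul_sum]
        rw [← Finset.sum_filter]
        have hsub : (F.image (fun H => Gam (κ W H) \ W)).erase ∅
            ⊆ univ.filter (fun Z => Disjoint W Z ∧ good (W ∪ Z) Z) := by
          intro Z hZ
          rw [Finset.mem_erase, Finset.mem_image] at hZ
          obtain ⟨hne, H, hH, rfl⟩ := hZ
          simp only [mem_filter, mem_univ, true_and, hgood]
          exact ⟨Finset.disjoint_sdiff, hne, subset_Uset (hκ W H hH)⟩
        refine (Finset.sum_le_sum (g := fun Z => rho (fun y : X × Fin R => q y.2) (W ∪ Z) * wt Z)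
          ?_).trans (Finset.sum_le_sum_of_subset_of_nonneg hsub ?_)
        · intro Z hZ
          have := hsub hZ
          simp only [mem_filter, mem_univ, true_and] at this
          exact hstep W Z this.1
        · intro Z _ _
          exact mul_nonneg (hr0 _) (wt_nonneg Z)
    _ = ∑ Z : Finset (X × Fin R), ∑ W : Finset (X × Fin R),
          (if Disjoint W Z ∧ good (W ∪ Z) Z then rho (fun y => q y.2) (W ∪ Z) * wt Z else 0) :=
        Finset.sum_comm
    _ ≤ ∑ Z : Finset (X × Fin R), ∑ W : Finset (X × Fin R),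
          (if good W Z then rho (fun y => q y.2) W * wt Z else 0) := by
        apply Finset.sum_le_sum
        intro Z _
        rw [← Finset.sum_filter, ← Finset.sum_filter]
        rw [← Finset.sum_image (s := univ.filter (fun W => Disjoint W Z ∧ good (W ∪ Z) Z))
          (g := fun W => W ∪ Z) (f := fun W => rho (fun y : X × Fin R => q y.2) W * wt Z)]
        · apply Finset.sum_le_sum_of_subset_of_nonneg
          · intro W hW
            rw [Finset.mem_image] at hW
            obtain ⟨W₀, h1, rfl⟩ := hW
            simp only [mem_filter, mem_univ, true_and] at h1 ⊢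
            exact h1.2
          · intro W _ _
            exact mul_nonneg (hr0 _) (wt_nonneg Z)
        · intro W hW W' hW' heq
          simp only [Finset.coe_filter, Set.mem_ofPred_eq, mem_univ, true_and] at hW hW'
          simp only at heq
          have h1 : (W ∪ Z) \ Z = W := by
            rw [Finset.union_sdiff_right]
            exact Finset.sdiff_eq_self_of_disjoint hW.1
          have h2 : (W' ∪ Z) \ Z = W' := by
            rw [Finset.union_sdiff_right]
            exact Finset.sdiff_eq_self_of_disjoint hW'.1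
          rw [← h1, heq, h2]
    _ = ∑ W : Finset (X × Fin R), rho (fun y => q y.2) W *
          ∑ Z ∈ univ.filter (fun Z => good W Z), wt Z := by
        rw [Finset.sum_comm]
        apply Finset.sum_congr rfl
        intro W _
        rw [← Finset.sum_filter, Finset.mul_sum]
    _ ≤ ∑ W : Finset (X × Fin R), rho (fun y => q y.2) W * (2 / 5) := by
        apply Finset.sum_le_sum
        intro W _
        apply mul_le_mul_of_nonneg_left _ (hr0 W)
        exact sum_good_le F lam W
    _ = 2 / 5 := by
        rw [← Finset.sum_mul, sum_rho, one_mul]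

end Prob

end Vale.Agent.P034
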