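import Vale.Agent.P034.Defs
import Vale.Agent.P034.Main

namespace Vale.Agent.P034

open Finset

variable {X : Type*} [Fintype X] [DecidableEq X]

lemma isSmall_zero {F : Finset (Finset X)} (h : ∅ ∉ F) : IsSmall 0 F := by
  refine ⟨F, fun H hH => ⟨H, hH, Finset.Subset.refl _⟩, ?_⟩
  unfold coverCost
  rw [Finset.sum_eq_zero]
  · norm_num
  · intro S hS
    apply zero_pow
    intro h0
    rw [Finset.card_eq_zero] at h0
    exact h (h0 ▸ hS)

lemma isSmall_frac {F : Finset (Finset X)} {p : ℝ} (h : IsSmall p F) :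
    IsFractionallySmall p F := by
  classical
  obtain ⟨G, hG, hc⟩ := h
  refine ⟨fun S => if S ∈ G then 1 else 0, ⟨?_, ?_⟩, ?_⟩
  · intro S
    simp only
    split_ifs <;> norm_num
  · intro H hH
    obtain ⟨S, hS, hSH⟩ := hG H hH
    have h1 : (fun S : Finset X => if S ∈ G then (1 : ℝ) else 0) S
        ≤ ∑ S ∈ H.powerset, (fun S : Finset X => if S ∈ G then (1 : ℝ) else 0) S := by
      apply Finset.single_le_sum (f := fun S : Finset X => if S ∈ G then (1 : ℝ) else 0)
      · intro T _
        split_ifs <;> norm_num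
      · exact Finset.mem_powerset.mpr hSH
    simpa [hS] using h1
  · unfold fractionalCost
    unfold coverCost at hc
    simp only [ite_mul, one_mul, zero_mul]
    rw [Finset.sum_ite_mem, Finset.univ_inter]
    exact hc

lemma isGreatest_small {F : Finset (Finset X)} (h : ∅ ∉ F) :
    IsGreatest {p : ℝ | 0 ≤ p ∧ p ≤ 1 ∧ IsSmall p F} (expectationThreshold F) := by
  have hcomp : IsCompact {p : ℝ | 0 ≤ p ∧ p ≤ 1 ∧ IsSmall p F} := by
    have heq : {p : ℝ | 0 ≤ p ∧ p ≤ 1 ∧ IsSmall p F}
        = Set.Icc 0 1 ∩ ⋃ G ∈ {G : Finset (Finset X) | Covers G F}, {p : ℝ | coverCost p G ≤ 1 / 2} := by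
      ext p
      simp only [Set.mem_ofPred_eq, Set.mem_inter_iff, Set.mem_Icc, Set.mem_iUnion, IsSmall,
        exists_prop]
      tauto
    rw [heq]
    apply isCompact_Icc.inter_right
    apply Set.Finite.isClosed_biUnion (Set.toFinite _)
    intro G _
    apply isClosed_le
    · unfold coverCost
      fun_prop
    · exact continuous_const
  exact hcomp.isGreatest_sSup ⟨0, le_refl _, zero_le_one, isSmall_zero h⟩

lemma isGreatest_frac {F : Finset (Finset X)} (h : ∅ ∉ F) :
    IsGreatest {p : ℝ | 0 ≤ p ∧ p ≤ 1 ∧ IsFractionallySmall p F}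
      (fractionalExpectationThreshold F) := by
  have hcomp : IsCompact {p : ℝ | 0 ≤ p ∧ p ≤ 1 ∧ IsFractionallySmall p F} := by
    set K : Set (ℝ × (Finset X → ℝ)) :=
      (Set.Icc (0 : ℝ) 1 ×ˢ Set.pi Set.univ (fun _ : Finset X => Set.Icc (0 : ℝ) 1)) ∩
        ((⋂ H ∈ {H : Finset X | H ∈ F}, {x : ℝ × (Finset X → ℝ) | 1 ≤ ∑ S ∈ H.powerset, x.2 S}) ∩
          {x : ℝ × (Finset X → ℝ) | ∑ S : Finset X, x.2 S * x.1 ^ S.card ≤ 1 / 2}) with hK
    have hKc : IsCompact K := by
      apply IsCompact.inter_right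
      · exact isCompact_Icc.prod (isCompact_univ_pi (fun _ => isCompact_Icc))
      · apply IsClosed.inter
        · apply isClosed_biInter
          intro H _
          apply isClosed_le continuous_const
          fun_prop
        · apply isClosed_le _ continuous_const
          fun_prop
    have heq : {p : ℝ | 0 ≤ p ∧ p ≤ 1 ∧ IsFractionallySmall p F} = Prod.fst '' K := by
      ext p
      simp only [Set.mem_ofPred_eq, Set.mem_image, IsFractionallySmall, IsFractionalCover,
        fractionalCost, hK, Set.mem_inter_iff, Set.mem_prod, Set.mem_Icc, Set.mem_pi,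
        Set.mem_univ, true_implies, Set.mem_iInter, Prod.exists]
      constructor
      · rintro ⟨h0, h1, g, ⟨hg, hc⟩, hcost⟩
        exact ⟨p, g, ⟨⟨⟨h0, h1⟩, hg⟩, hc, hcost⟩, rfl⟩
      · rintro ⟨p', g, ⟨⟨⟨h0, h1⟩, hg⟩, hc, hcost⟩, rfl⟩
        exact ⟨h0, h1, g, ⟨hg, hc⟩, hcost⟩
    rw [heq]
    exact hKc.image continuous_fst
  exact hcomp.isGreatest_sSup ⟨0, le_refl _, zero_le_one, isSmall_frac (isSmall_zero h)⟩

/-- Rounding of fractional covers with a universal loss in `p`. -/
lemma isSmall_of_frac {F : Finset (Finset X)} {p : ℝ} (hp : 0 < p)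
    (h : IsFractionallySmall p F) : IsSmall (p / 2 ^ 18) F := by
  classical
  obtain ⟨g, ⟨hg, hcov⟩, hcost⟩ := h
  unfold fractionalCost at hcost
  have hg0 : g ∅ ≤ 1 / 2 := by
    refine le_trans ?_ hcost
    have h1 := Finset.single_le_sum (f := fun S : Finset X => g S * p ^ S.card)
      (fun S _ => mul_nonneg (hg S).1 (by positivity)) (mem_univ (∅ : Finset X))
    simpa using h1
  have := rounding F (fun S => if S = ∅ then 0 else 2 * g S) ?_ (by simp) ?_
    (p := p / 2 ^ 18) (by positivity) ?_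
  · exact this
  · intro S
    split_ifs
    · exact le_refl _
    · have := (hg S).1
      linarith
  · intro H hH
    have h1 := hcov H hH
    rw [← Finset.add_sum_erase H.powerset _ (Finset.empty_mem_powerset H)] at h1
    rw [← Finset.add_sum_erase H.powerset _ (Finset.empty_mem_powerset H)]
    rw [if_pos rfl, zero_add]
    have h2 : ∑ x ∈ H.powerset.erase ∅, (if x = ∅ then (0 : ℝ) else 2 * g x)
        = 2 * ∑ x ∈ H.powerset.erase ∅, g x := by
      rw [Finset.mul_sum]
      apply Finset.sum_congr rfl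
      intro x hx
      rw [if_neg (Finset.mem_erase.mp hx).1]
    rw [h2]
    linarith
  · have h3 : (2 : ℝ) ^ 18 * (p / 2 ^ 18) = p := by field_simp
    rw [h3]
    calc ∑ S : Finset X, (if S = ∅ then (0 : ℝ) else 2 * g S) * p ^ S.card
        ≤ ∑ S : Finset X, 2 * (g S * p ^ S.card) := by
          apply Finset.sum_le_sum
          intro S _
          have h4 := (hg S).1
          have h5 : 0 ≤ p ^ S.card := by positivity
          split_ifs
          · rw [zero_mul]; positivity
          · rw [mul_assoc]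
      _ = 2 * ∑ S : Finset X, g S * p ^ S.card := by rw [Finset.mul_sum]
      _ ≤ 1 := by linarith

end Vale.Agent.P034
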