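import Mathlib

namespace Vale.Agent.P034

open Finset

section TopSum

variable {X : Type*} [Fintype X] [DecidableEq X]

/-- The largest sum of `l` over a set of at most `N` elements. -/
noncomputable def topSum (l : X → ℝ) (N : ℕ) : ℝ :=
  ((univ : Finset (Finset X)).filter (fun A => A.card ≤ N)).sup' ⟨∅, by simp⟩
    (fun A => ∑ x ∈ A, l x)

lemma le_topSum (l : X → ℝ) {N : ℕ} {A : Finset X} (hA : A.card ≤ N) :
    ∑ x ∈ A, l x ≤ topSum l N := by
  unfold topSum
  exact Finset.le_sup' (f := fun A : Finset X => ∑ x ∈ A, l x) (by simp [hA])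

lemma exists_topSum (l : X → ℝ) (N : ℕ) :
    ∃ A : Finset X, A.card ≤ N ∧ topSum l N = ∑ x ∈ A, l x := by
  unfold topSum
  obtain ⟨A, hA, h⟩ := Finset.exists_mem_eq_sup'
    (s := (univ : Finset (Finset X)).filter (fun A => A.card ≤ N)) ⟨∅, by simp⟩
    (fun A => ∑ x ∈ A, l x)
  exact ⟨A, by simpa using hA, h⟩

lemma topSum_nonneg (l : X → ℝ) (N : ℕ) : 0 ≤ topSum l N := by
  have := le_topSum l (N := N) (A := ∅) (by simp)
  simpa using this

lemma topSum_mono (l : X → ℝ) {N N' : ℕ} (h : N ≤ N') : topSum l N ≤ topSum l N' := by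
  obtain ⟨A, hA, he⟩ := exists_topSum l N
  rw [he]
  exact le_topSum l (hA.trans h)

lemma topSum_le (l : X → ℝ) (hl : ∀ x, 0 ≤ l x) (N : ℕ) : topSum l N ≤ ∑ x, l x := by
  obtain ⟨A, _, he⟩ := exists_topSum l N
  rw [he]
  exact Finset.sum_le_sum_of_subset_of_nonneg (subset_univ _) (fun x _ _ => hl x)

/-- Few elements exceed the normalised increment of the top sums. -/
lemma card_gt_step (l : X → ℝ) {m n : ℕ} (hm : 0 < m) (hn : 0 < n) :
    ((univ : Finset X).filter
      (fun x => (topSum l (m * n) - topSum l (m * (n - 1))) / m < l x)).card < m * n := by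
  set D := (univ : Finset X).filter
      (fun x => (topSum l (m * n) - topSum l (m * (n - 1))) / m < l x) with hD
  by_contra hcon
  push Not at hcon
  obtain ⟨A, hA, he⟩ := exists_topSum l (m * (n - 1))
  have hmn : m * n = m * (n - 1) + m := by
    obtain ⟨k, rfl⟩ : ∃ k, n = k + 1 := ⟨n - 1, by omega⟩
    simp [Nat.mul_succ]
  have h1 : m ≤ (D \ A).card := by
    have := Finset.le_card_sdiff A D
    omega
  obtain ⟨E, hE, hEc⟩ := Finset.exists_subset_card_eq h1
  have hdisj : Disjoint A E := by
    rw [Finset.disjoint_left]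
    intro x hxA hxE
    have := hE hxE
    simp only [mem_sdiff] at this
    exact this.2 hxA
  have hcard : (A ∪ E).card ≤ m * n := by
    rw [Finset.card_union_of_disjoint hdisj]
    omega
  have h2 := le_topSum l hcard
  rw [Finset.sum_union hdisj, ← he] at h2
  have hmpos : (0 : ℝ) < m := by exact_mod_cast hm
  have hEne : E.Nonempty := by
    rw [← Finset.card_pos]; omega
  have h3 : (m : ℝ) * ((topSum l (m * n) - topSum l (m * (n - 1))) / m) < ∑ x ∈ E, l x := by
    have : ∑ x ∈ E, ((topSum l (m * n) - topSum l (m * (n - 1))) / m) < ∑ x ∈ E, l x := by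
      apply Finset.sum_lt_sum_of_nonempty hEne
      intro x hx
      have := hE hx
      simp only [hD, mem_sdiff, mem_filter, mem_univ, true_and] at this
      exact this.1
    rw [Finset.sum_const, hEc, nsmul_eq_mul] at this
    exact this
  rw [mul_div_cancel₀ _ hmpos.ne'] at h3
  linarith

end TopSum

end Vale.Agent.P034
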